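import Vale.Agent.Lib.P018.Sieve

namespace Vale.Agent.Results.P018.A_SieveUpperBound

open Polynomial Finset Vale.Agent.P018

/-- The upper-bound half of the predicted asymptotic for power-free values, for every integer
polynomial `f` and every exponent `k`.

(1) For every finite set `T` of primes and every `X`,
`S_{f,k}(X) ≤ X ∏_{p ∈ T} (1 - ρ_f(p^k)/p^k) + ∏_{p ∈ T} p^k`.

(2) Hence for every `ε > 0`, `S_{f,k}(X) ≤ (∏_{p ∈ T} (1 - ρ_f(p^k)/p^k) + ε) X` for all large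
`X`. -/
theorem result :
    (∀ (f : ℤ[X]) (k : ℕ) (T : Finset ℕ), (∀ p ∈ T, p.Prime) → ∀ X : ℕ,
      (countFree f k X : ℝ)
        ≤ X * ∏ p ∈ T, (1 - (rho f (p ^ k) : ℝ) / (p : ℝ) ^ k) + ∏ p ∈ T, (p : ℝ) ^ k) ∧
    (∀ (f : ℤ[X]) (k : ℕ) (T : Finset ℕ), (∀ p ∈ T, p.Prime) → ∀ ε : ℝ, 0 < ε →
      ∃ X₀ : ℕ, ∀ X : ℕ, X₀ ≤ X →
        (countFree f k X : ℝ)
          ≤ (∏ p ∈ T, (1 - (rho f (p ^ k) : ℝ) / (p : ℝ) ^ k) + ε) * X) := by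
  refine ⟨sieve_real, ?_⟩
  intro f k T hT ε hε
  refine ⟨⌈(∏ p ∈ T, (p : ℝ) ^ k) / ε⌉₊, ?_⟩
  intro X hX
  have h1 := sieve_real f k T hT X
  have h2 : (∏ p ∈ T, (p : ℝ) ^ k) / ε ≤ X :=
    le_trans (Nat.le_ceil _) (by exact_mod_cast hX)
  have h3 : ∏ p ∈ T, (p : ℝ) ^ k ≤ ε * X := by
    rw [div_le_iff₀ hε] at h2
    linarith
  linarith

end Vale.Agent.Results.P018.A_SieveUpperBound
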